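import Vale.Agent.P125.Defs
import Vale.Agent.P125.Smooth
import Vale.Agent.P125.Extremal
import Vale.Agent.P125.Spread
import Vale.Agent.P125.Final

namespace Vale.Agent.Results.P125.Main

open Vale.Agent.P125

/-- Every real normed space with Markov type `p` for some `p > 1` admits an equivalent uniformly
smooth norm. -/
theorem result (X : Type*) [NormedAddCommGroup X] [NormedSpace ℝ X] (p : ℝ) (hp : 1 < p)
    (h : HasMarkovType X p) : HasEquivUniformlySmoothNorm X := by
  by_cases H : ∀ d, Rk d {y : X | ‖y‖ ≤ 1} {g : X →L[ℝ] ℝ | ‖g‖ ≤ 1}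
  · exfalso
    obtain ⟨K, hK, hMT⟩ := h
    obtain ⟨ν, h1, h2, h3⟩ := exists_esa (C := K ^ p) (by linarith) (james_of_rk H) hMT
    exact no_esa hp (Real.rpow_nonneg hK p) ν h1 h2 (by linarith)
  · obtain ⟨d, hd⟩ := not_forall.1 H
    obtain ⟨n, γ, h1, h2, h3, h4⟩ := exists_MP_of_not_rk d hd
    exact smooth_of_MP (MP.small h1 h2 h3 h4)

end Vale.Agent.Results.P125.Main
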